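import Vale.Agent.H14.TQ.Defs

/-! ROW A3: three successive random roundings (use `rounding` of H2/P034/Core, as `step` in
H2/P034/Iter, with a general cost function `c`). -/

namespace Vale.Agent.H14.TQ

open Finset Vale.Agent.H2.P034

variable {α : Type*} [Fintype α] [DecidableEq α]

theorem three_level (c : Finset α → ℝ) (hc : ∀ O, 0 ≤ c O)
    (π0 π1 π2 : Finset α → ℝ) (h0 : ∀ O, 0 ≤ π0 O) (h1 : ∀ O, 0 ≤ π1 O) (h2 : ∀ O, 0 ≤ π2 O)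
    (T : Finset (Finset α))
    (h01 : ∀ U, π1 U ≠ 0 → 1 ≤ ∑ O ∈ U.powerset, π0 O)
    (h12 : ∀ U, π2 U ≠ 0 → 1 ≤ ∑ O ∈ U.powerset, π1 O)
    (h2T : ∀ U ∈ T, 1 ≤ ∑ O ∈ U.powerset, π2 O)
    {c0 B L0 L1 L2 : ℝ} (hL0 : 0 ≤ L0) (hL1 : 0 ≤ L1) (hL2 : 0 ≤ L2)
    (hc0 : ∑ O, π0 O * c O ≤ c0) (hc1 : ∑ O, π1 O * c O ≤ 1) (hc2 : ∑ O, π2 O * c O ≤ 1)
    (hB : ∑ U ∈ T, c U ≤ B) :
    ∃ G : Finset (Finset α), (∀ U ∈ T, ∃ O ∈ G, O ⊆ U) ∧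
      ∑ O ∈ G, c O ≤ L0 * c0 + L1 * Real.exp (-L0) + L2 * Real.exp (-L1)
        + B * Real.exp (-L2) := by
  sorry

end Vale.Agent.H14.TQ
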