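import Vale.Agent.H14.TQ.FChain
import Vale.Agent.H14.TQ.Three

/-! ROW A10: the cover of the targets of one block. Levels `D = s, 5s/6, 4s/6, s/2`,
`d = s/6`; `π0`: `D = 5s/6`, `θ + 2η`; `π1`: `D = 4s/6`, `θ + 3η`; `π2`: `D = s/2`, `θ + 4η`;
`three_level` with `c O = q^|O \ W|`; `q ≤ d`. -/

namespace Vale.Agent.H14.TQ

open Finset Vale.Agent.H2.P034

variable {α : Type*} [Fintype α] [DecidableEq α]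

theorem block_cover {γ : Finset α → ℝ} (hγ : ∀ S, 0 ≤ γ S) {s : ℝ} (hs : 0 < s) (hs1 : s ≤ 1)
    {q : ℝ} (hq : 0 ≤ q) (hqs : 6 * q ≤ s) {N : ℕ} (hN : 1 ≤ N) (W : Finset α)
    {ν : ℕ} {θ η c0 B : ℝ} (hθ : 0 < θ) (hη : 0 < η)
    (hlost : (1 + (N : ℝ)⁻¹) ^ ν - 1 ≤ η) (hW : Lam γ s W < θ + η)
    (hc : ∀ O, W ⊆ O → θ + η ≤ Lam γ s O →
      (6 * q / s) ^ (O \ W).card * Lam γ s W ≤ (θ + η) * c0)
    (T : Finset (Finset α))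
    (hT : ∀ V ∈ T, W ⊆ V ∧ (V \ W).card ≤ ν ∧ θ + 4 * η ≤ LamD γ s N W (s / 2) V)
    (hB : ∑ V ∈ T, q ^ (V \ W).card ≤ B)
    {L0 L1 L2 : ℝ} (hL0 : 0 ≤ L0) (hL1 : 0 ≤ L1) (hL2 : 0 ≤ L2) :
    ∃ G : Finset (Finset α), (∀ V ∈ T, ∃ O ∈ G, O ⊆ V) ∧
      ∑ O ∈ G, q ^ (O \ W).card ≤ L0 * c0 + L1 * Real.exp (-L0) + L2 * Real.exp (-L1)
        + B * Real.exp (-L2) := by
  sorry

end Vale.Agent.H14.TQ
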