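import Vale.Agent.H14.TQ.Defs

/-! ROW A2: the abstract chain lemma (copy the proof of `exists_pi_aux` in H2/P034/Core). -/

namespace Vale.Agent.H14.TQ

open Finset Vale.Agent.H2.P034

variable {α : Type*} [Fintype α] [DecidableEq α]

theorem chain_abs (T : Finset α → Finset α → ℝ) (hT0 : ∀ O Y, 0 ≤ T O Y)
    (hTs : ∀ O Y, T O Y ≠ 0 → Y.Nonempty ∧ Disjoint Y O)
    (H Tar : Finset α → Prop) (W : Finset α) {d : ℝ} (hd : 0 ≤ d)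
    (hcost : ∀ O, W ⊆ O → ¬ H O → ∑ Y, T O Y * d ^ Y.card ≤ 1)
    (hmass : ∀ O V, W ⊆ O → O ⊆ V → Tar V → ¬ H O → 1 ≤ ∑ Y ∈ V.powerset, T O Y) :
    ∃ π : Finset α → ℝ, (∀ O, 0 ≤ π O) ∧ (∀ O, π O ≠ 0 → W ⊆ O ∧ H O) ∧
      (∀ V, W ⊆ V → Tar V → 1 ≤ ∑ O ∈ V.powerset, π O) ∧
      (∑ O, π O * d ^ (O \ W).card ≤ 1) ∧
      (¬ H W → ∑ O, π O * d ^ (O \ W).card ≤ ∑ Y, T W Y * d ^ Y.card) := by
  sorry

end Vale.Agent.H14.TQ
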