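import Vale.Agent.H14.TQ.RFacts

/-! ROW A12: greedy closures inside `U`. -/

namespace Vale.Agent.H14.TQ

open Finset Vale.Agent.H2.P034

variable {α : Type*} [Fintype α] [DecidableEq α]

/-- `C` is closed in `U` at threshold `N`. -/
def Closed (γ : Finset α → ℝ) (s : ℝ) (N t : ℕ) (U C : Finset α) : Prop :=
  ∀ Z : Finset α, Z.Nonempty → Z ⊆ U → Disjoint Z C → Z.card ≤ t →
    Imp γ s C Z < ((N : ℝ)⁻¹) ^ Z.card

/-- Strong induction on `(U \ O).card`. -/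
theorem exists_closure (γ : Finset α → ℝ) (s : ℝ) (N t : ℕ) (W U : Finset α) (O : Finset α)
    (hOU : O ⊆ U) (hR : Rch γ s N t W O) :
    (∃ V, V ⊆ U ∧ Rch γ s N t W V ∧ 2 ^ t ≤ Lam γ s V) ∨
    (∃ C, O ⊆ C ∧ C ⊆ U ∧ Rch γ s N t W C ∧ Closed γ s N t U C) := by
  sorry

/-- The sequence of closures for thresholds `Ns 0 ≤ Ns 1 ≤ ...`. -/
theorem closures (γ : Finset α → ℝ) (s : ℝ) (Ns : ℕ → ℕ) (h1 : ∀ r, 1 ≤ Ns r)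
    (hmono : Monotone Ns) (t : ℕ) {W U : Finset α} (hWU : W ⊆ U) (R : ℕ) :
    (∃ r ≤ R, ∃ V, V ⊆ U ∧ Rch γ s (Ns r) t W V ∧ 2 ^ t ≤ Lam γ s V) ∨
    (∃ C : ℕ → Finset α, (∀ r ≤ R, W ⊆ C r ∧ C r ⊆ U ∧ Rch γ s (Ns r) t W (C r) ∧
      Closed γ s (Ns r) t U (C r)) ∧ (∀ r < R, C r ⊆ C (r + 1))) := by
  sorry

end Vale.Agent.H14.TQ
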