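import Vale.Agent.H14.TQ.Flags

/-! ROW A6: cost of the flagged kernel (mimic `sum_Tw_pow` of H2/P034/Core, with
`ev_union_le` and `∑_{Y ⊆ F} d^|Y| D^|F \ Y| = (D + d)^|F|`). -/

namespace Vale.Agent.H14.TQ

open Finset Vale.Agent.H2.P034

variable {α : Type*} [Fintype α] [DecidableEq α]

theorem TD_cost {γ : Finset α → ℝ} (hγ : ∀ S, 0 ≤ γ S) {s : ℝ} (hs : 0 ≤ s)
    (N : ℕ) {D d : ℝ} (hD : 0 ≤ D) (hd : 0 ≤ d) (hDs : D ≤ s) (W O : Finset α) :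
    ∑ Y : Finset α, TD γ s N W D O Y * d ^ Y.card
      ≤ LamD γ s N W (D + d) O - LamD γ s N W D O := by
  sorry

end Vale.Agent.H14.TQ
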