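import Vale.Agent.H14.TQ.Defs

/-! ROW A15a: calculus of relative covers. -/

namespace Vale.Agent.H14.TQ

open Finset Vale.Agent.H2.P034

variable {α : Type*} [Fintype α] [DecidableEq α]

theorem Cov.mono {q : ℝ} {W : Finset α} {P P' : Finset α → Prop} {c c' : ℝ}
    (h : Cov q W P c) (hP : ∀ U, W ⊆ U → P' U → P U) (hc : c ≤ c') : Cov q W P' c' := by
  sorry

theorem Cov.union {q : ℝ} (hq : 0 ≤ q) {W : Finset α} {P P' : Finset α → Prop} {c c' : ℝ}
    (h : Cov q W P c) (h' : Cov q W P' c') : Cov q W (fun U => P U ∨ P' U) (c + c') := by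
  sorry

theorem Cov.biUnion {q : ℝ} (hq : 0 ≤ q) {W : Finset α} {ι : Type*} (A : Finset ι)
    (P : ι → Finset α → Prop) (c : ι → ℝ) (h : ∀ i ∈ A, Cov q W (P i) (c i)) :
    Cov q W (fun U => ∃ i ∈ A, P i U) (∑ i ∈ A, c i) := by
  sorry

/-- lifting from a larger context (replace `O` by `O ∪ W'`) -/
theorem Cov.lift {q : ℝ} (hq : 0 ≤ q) {W W' : Finset α} (hW : W ⊆ W')
    {P : Finset α → Prop} {c : ℝ} (h : Cov q W' P c) :
    Cov q W (fun U => W' ⊆ U ∧ P U) (q ^ (W' \ W).card * c) := by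
  sorry

/-- nothing to cover -/
theorem Cov.empty {q : ℝ} {W : Finset α} {P : Finset α → Prop} (h : ∀ U, W ⊆ U → ¬ P U)
    {c : ℝ} (hc : 0 ≤ c) : Cov q W P c := by
  sorry

end Vale.Agent.H14.TQ
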