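import Vale.Agent.H2.P034.Core

/-! P034: definitions for the constant-factor bound. -/

namespace Vale.Agent.H14.TQ

open Finset Vale.Agent.H2.P034

variable {α : Type*} [Fintype α] [DecidableEq α]

/-- Importance of `Z` in the context `O` (used for `Z` disjoint from `O`). -/
noncomputable def Imp (γ : Finset α → ℝ) (s : ℝ) (O Z : Finset α) : ℝ :=
  ∑ S : Finset α, if Z ⊆ S then γ S * s ^ (S \ (O ∪ Z)).card else 0

open Classical in
/-- Hereditary flags: elements of `S \ O` that belong to an important set in a context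
`O'` between `W` and `O`. -/
noncomputable def Fl (γ : Finset α → ℝ) (s : ℝ) (N : ℕ) (W O S : Finset α) : Finset α :=
  (S \ O).filter (fun x => ∃ O' Z : Finset α, W ⊆ O' ∧ O' ⊆ O ∧ Z ⊆ S ∧ Disjoint Z O' ∧ x ∈ Z ∧
    ((N : ℝ)⁻¹) ^ Z.card ≤ Imp γ s O' Z)

/-- Environment weight: flagged elements have density `D`, the others `s`. -/
noncomputable def ev (γ : Finset α → ℝ) (s : ℝ) (N : ℕ) (W : Finset α) (D : ℝ)
    (O S : Finset α) : ℝ :=
  s ^ ((S \ O) \ Fl γ s N W O S).card * D ^ (Fl γ s N W O S).card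

noncomputable def LamD (γ : Finset α → ℝ) (s : ℝ) (N : ℕ) (W : Finset α) (D : ℝ)
    (O : Finset α) : ℝ :=
  ∑ S : Finset α, γ S * ev γ s N W D O S

/-- unnormalised flagged kernel. -/
noncomputable def TD (γ : Finset α → ℝ) (s : ℝ) (N : ℕ) (W : Finset α) (D : ℝ)
    (O Y : Finset α) : ℝ :=
  if Y.Nonempty ∧ Disjoint Y O then
    ∑ S : Finset α, (if Y ⊆ Fl γ s N W O S then γ S * ev γ s N W D (O ∪ Y) S else 0) else 0

/-- `V` is obtained from `W` by `k` additions of important sets. -/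
inductive Reach (γ : Finset α → ℝ) (s : ℝ) (N t : ℕ) (W : Finset α) : ℕ → Finset α → Prop
  | base : Reach γ s N t W 0 W
  | step {k : ℕ} {O Z : Finset α} : Reach γ s N t W k O → Z.Nonempty → Disjoint Z O →
      Z.card ≤ t → ((N : ℝ)⁻¹) ^ Z.card ≤ Imp γ s O Z → Lam γ s O < 2 ^ t →
      Reach γ s N t W (k + 1) (O ∪ Z)

/-- `V` is reachable from `W`. -/
def Rch (γ : Finset α → ℝ) (s : ℝ) (N t : ℕ) (W V : Finset α) : Prop :=
  ∃ k, Reach γ s N t W k V

open Classical in
/-- The finite set of reachable sets. -/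
noncomputable def RSet (γ : Finset α → ℝ) (s : ℝ) (N t : ℕ) (W : Finset α) :
    Finset (Finset α) :=
  univ.filter (fun V => Rch γ s N t W V)

open Classical in
/-- Remove the sets that contain an important set. -/
noncomputable def prune (γ : Finset α → ℝ) (s : ℝ) (N : ℕ) (W : Finset α) : Finset α → ℝ :=
  fun S => if ∀ Z : Finset α, Z.Nonempty → Z ⊆ S → Disjoint Z W →
    Imp γ s W Z < ((N : ℝ)⁻¹) ^ Z.card then γ S else 0

/-- mass inside `U`. -/
noncomputable def Phi (γ : Finset α → ℝ) (U : Finset α) : ℝ := ∑ S ∈ U.powerset, γ S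

/-- relative cover: the sets `U ⊇ W` with `P U` are covered at relative cost `c`. -/
def Cov (q : ℝ) (W : Finset α) (P : Finset α → Prop) (c : ℝ) : Prop :=
  ∃ G : Finset (Finset α), (∀ U, W ⊆ U → P U → ∃ O ∈ G, O ⊆ U) ∧
    ∑ O ∈ G, q ^ (O \ W).card ≤ c

/-- number of additions, size bound, flag threshold, cost bound -/
def kmax (N t : ℕ) : ℕ := 2 ^ (t + 1) * N ^ t + 1

def nuB (N t : ℕ) : ℕ := t * kmax N t

def Nf (m N t : ℕ) : ℕ := 2 * m * nuB N t

noncomputable def Bc (N t : ℕ) : ℝ := ∑ k ∈ range (kmax N t + 1), ((4 * (N : ℝ)) ^ t) ^ k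

/-- thresholds `M^((2M)^r)`, `M = m^2`. -/
def Nr (m r : ℕ) : ℕ := (m ^ 2) ^ ((2 * m ^ 2) ^ r)

/-- next scale -/
def mNext (m r : ℕ) : ℕ := Nr m r ^ (m ^ 2)

end Vale.Agent.H14.TQ
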