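import Vale.Agent.H14.TQ.Mass
import Vale.Agent.H14.TQ.Cost
import Vale.Agent.H14.TQ.Chain

/-! ROW A7: the flagged chain. -/

namespace Vale.Agent.H14.TQ

open Finset Vale.Agent.H2.P034

variable {α : Type*} [Fintype α] [DecidableEq α]

theorem flag_chain {γ : Finset α → ℝ} (hγ : ∀ S, 0 ≤ γ S) {s : ℝ} (hs : 0 ≤ s) (hs1 : s ≤ 1)
    {N : ℕ} (hN : 1 ≤ N) {D d : ℝ} (hD : 0 ≤ D) (hd : 0 ≤ d) (hDs : D + d ≤ s) (W : Finset α)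
    {ν : ℕ} {θ ε : ℝ} (hε : (1 + (N : ℝ)⁻¹) ^ ν - 1 ≤ ε) (hθ : 0 < θ - ε) :
    ∃ π : Finset α → ℝ, (∀ O, 0 ≤ π O) ∧
      (∀ O, π O ≠ 0 → W ⊆ O ∧ (O \ W).card ≤ ν ∧ θ - ε ≤ LamD γ s N W (D + d) O) ∧
      (∀ V, W ⊆ V → (V \ W).card ≤ ν → θ ≤ LamD γ s N W D V →
        1 ≤ ∑ O ∈ V.powerset, π O) ∧
      (∑ O, π O * d ^ (O \ W).card ≤ 1) ∧
      (LamD γ s N W (D + d) W < θ - ε →
        ∑ O, π O * d ^ (O \ W).card ≤ LamD γ s N W (D + d) W / (θ - ε)) := by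
  sorry

end Vale.Agent.H14.TQ
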