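import Vale.Agent.H14.TQ.Defs

/-! ROW A4: elementary facts on the flags and the environment weights. -/

namespace Vale.Agent.H14.TQ

open Finset Vale.Agent.H2.P034

variable {α : Type*} [Fintype α] [DecidableEq α]

theorem Fl_subset (γ : Finset α → ℝ) (s : ℝ) (N : ℕ) (W O S : Finset α) :
    Fl γ s N W O S ⊆ S \ O := by
  sorry

/-- flags are hereditary -/
theorem Fl_mono (γ : Finset α → ℝ) (s : ℝ) (N : ℕ) (W : Finset α) {O V : Finset α} (h : O ⊆ V)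
    (S : Finset α) : Fl γ s N W O S \ V ⊆ Fl γ s N W V S := by
  sorry

/-- an important set (in the context `O`) inside `S` is flagged -/
theorem subset_Fl (γ : Finset α → ℝ) (s : ℝ) (N : ℕ) {W O Z S : Finset α} (hW : W ⊆ O)
    (hZ : Z ⊆ S) (hd : Disjoint Z O) (hI : ((N : ℝ)⁻¹) ^ Z.card ≤ Imp γ s O Z) :
    Z ⊆ Fl γ s N W O S := by
  sorry

theorem ev_nonneg (γ : Finset α → ℝ) {s : ℝ} (hs : 0 ≤ s) (N : ℕ) (W : Finset α) {D : ℝ}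
    (hD : 0 ≤ D) (O S : Finset α) : 0 ≤ ev γ s N W D O S := by
  sorry

theorem ev_mono_D (γ : Finset α → ℝ) {s : ℝ} (hs : 0 ≤ s) (N : ℕ) (W : Finset α) {D D' : ℝ}
    (hD : 0 ≤ D) (h : D ≤ D') (O S : Finset α) : ev γ s N W D O S ≤ ev γ s N W D' O S := by
  sorry

theorem ev_self (γ : Finset α → ℝ) (s : ℝ) (N : ℕ) (W : Finset α) (O S : Finset α) :
    ev γ s N W s O S = s ^ (S \ O).card := by
  sorry

theorem ev_le_pow (γ : Finset α → ℝ) {s : ℝ} (hs : 0 ≤ s) (N : ℕ) (W : Finset α) {D : ℝ}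
    (hD : 0 ≤ D) (h : D ≤ s) (O S : Finset α) : ev γ s N W D O S ≤ s ^ (S \ O).card := by
  sorry

theorem ev_le_of_sdiff_eq (γ : Finset α → ℝ) {s : ℝ} (hs : 0 ≤ s) (N : ℕ) (W : Finset α)
    {D : ℝ} (hD : 0 ≤ D) (h : D ≤ s) {O V : Finset α} (hOV : O ⊆ V) {S : Finset α}
    (hS : S \ V = S \ O) : ev γ s N W D V S ≤ ev γ s N W D O S := by
  sorry

theorem ev_union_le (γ : Finset α → ℝ) {s : ℝ} (hs : 0 ≤ s) (N : ℕ) (W : Finset α) {D : ℝ}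
    (hD : 0 ≤ D) (h : D ≤ s) {O Y S : Finset α} (hY : Y ⊆ Fl γ s N W O S) :
    ev γ s N W D (O ∪ Y) S
      ≤ s ^ ((S \ O) \ Fl γ s N W O S).card * D ^ (Fl γ s N W O S \ Y).card := by
  sorry

theorem ev_half (γ : Finset α → ℝ) {s : ℝ} (hs : 0 ≤ s) (N : ℕ) (W : Finset α) {t : ℕ}
    (O : Finset α) {S : Finset α} (hS : S.card ≤ t) :
    s ^ (S \ O).card ≤ 2 ^ t * ev γ s N W (s / 2) O S := by
  sorry

theorem LamD_nonneg {γ : Finset α → ℝ} (hγ : ∀ S, 0 ≤ γ S) {s : ℝ} (hs : 0 ≤ s) (N : ℕ)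
    (W : Finset α) {D : ℝ} (hD : 0 ≤ D) (O : Finset α) : 0 ≤ LamD γ s N W D O := by
  sorry

theorem LamD_mono_D {γ : Finset α → ℝ} (hγ : ∀ S, 0 ≤ γ S) {s : ℝ} (hs : 0 ≤ s) (N : ℕ)
    (W : Finset α) {D D' : ℝ} (hD : 0 ≤ D) (h : D ≤ D') (O : Finset α) :
    LamD γ s N W D O ≤ LamD γ s N W D' O := by
  sorry

theorem LamD_self (γ : Finset α → ℝ) (s : ℝ) (N : ℕ) (W O : Finset α) :
    LamD γ s N W s O = Lam γ s O := by
  sorry

/-- targets of type (A) -/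
theorem LamD_half_ge {γ : Finset α → ℝ} (hγ : ∀ S, 0 ≤ γ S) {s : ℝ} (hs : 0 ≤ s) (N : ℕ)
    (W : Finset α) {t : ℕ} (hcard : ∀ S, γ S ≠ 0 → S.card ≤ t) (O : Finset α) :
    Lam γ s O ≤ 2 ^ t * LamD γ s N W (s / 2) O := by
  sorry

end Vale.Agent.H14.TQ
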