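import Vale.Agent.H14.TQ.Defs

/-! ROW A1: elementary facts on `Imp` and `Lam`. -/

namespace Vale.Agent.H14.TQ

open Finset Vale.Agent.H2.P034

variable {α : Type*} [Fintype α] [DecidableEq α]

theorem Imp_nonneg {γ : Finset α → ℝ} (hγ : ∀ S, 0 ≤ γ S) {s : ℝ} (hs : 0 ≤ s)
    (O Z : Finset α) : 0 ≤ Imp γ s O Z := by
  sorry

theorem Imp_mono {γ : Finset α → ℝ} (hγ : ∀ S, 0 ≤ γ S) {s : ℝ} (hs : 0 ≤ s) (hs1 : s ≤ 1)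
    {O O' : Finset α} (h : O ⊆ O') (Z : Finset α) :
    Imp γ s O Z ≤ Imp γ s O' (Z \ O') := by
  sorry

theorem Lam_add_ge {γ : Finset α → ℝ} (hγ : ∀ S, 0 ≤ γ S) {s : ℝ} (hs : 0 ≤ s)
    (hs1 : s ≤ 1 / 2) {O Z : Finset α} (hZ : Z.Nonempty) (hd : Disjoint Z O) :
    Lam γ s O + Imp γ s O Z / 2 ≤ Lam γ s (O ∪ Z) := by
  sorry

theorem Lam_mono_set {γ : Finset α → ℝ} (hγ : ∀ S, 0 ≤ γ S) {s : ℝ} (hs : 0 ≤ s)
    (hs1 : s ≤ 1) {O O' : Finset α} (h : O ⊆ O') : Lam γ s O ≤ Lam γ s O' := by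
  sorry

theorem Lam_two {γ : Finset α → ℝ} (hγ : ∀ S, 0 ≤ γ S) {s : ℝ} (hs : 0 ≤ s) {t : ℕ}
    (hcard : ∀ S, γ S ≠ 0 → S.card ≤ t) (O : Finset α) :
    Lam γ (s + s) O ≤ 2 ^ t * Lam γ s O := by
  sorry

/-- growth bound: from `W` to `O` only the importances count. -/
theorem Lam_sub_le {γ : Finset α → ℝ} (hγ : ∀ S, 0 ≤ γ S) {s : ℝ} (hs : 0 ≤ s)
    {W O : Finset α} (hWO : W ⊆ O) :
    Lam γ s O - Lam γ s W ≤ ∑ Y ∈ (O \ W).powerset.erase ∅, Imp γ s W Y := by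
  sorry

/-- `Tw` is `Imp` for nonempty sets disjoint from `V`. -/
theorem Tw_eq_Imp (γ : Finset α → ℝ) (s : ℝ) {V Y : Finset α} (h1 : Y.Nonempty)
    (h2 : Disjoint Y V) : Tw γ s V Y = Imp γ s V Y := by
  sorry

end Vale.Agent.H14.TQ
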