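import Vale.Agent.H14.TQ.Flags
import Vale.Agent.H14.TQ.ImpL

/-! ROW A11: pruning. -/

namespace Vale.Agent.H14.TQ

open Finset Vale.Agent.H2.P034

variable {α : Type*} [Fintype α] [DecidableEq α]

theorem prune_nonneg {γ : Finset α → ℝ} (hγ : ∀ S, 0 ≤ γ S) (s : ℝ) (N : ℕ) (W S : Finset α) :
    0 ≤ prune γ s N W S := by
  sorry

theorem prune_ne_zero {γ : Finset α → ℝ} {s : ℝ} {N : ℕ} {W S : Finset α}
    (h : prune γ s N W S ≠ 0) : γ S ≠ 0 ∧ prune γ s N W S = γ S ∧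
      ∀ Z : Finset α, Z.Nonempty → Z ⊆ S → Disjoint Z W →
        Imp γ s W Z < ((N : ℝ)⁻¹) ^ Z.card := by
  sorry

/-- the pruned weights are spread -/
theorem prune_spread {γ : Finset α → ℝ} (hγ : ∀ S, 0 ≤ γ S) {s : ℝ} (hs : 0 ≤ s) {N : ℕ}
    (hN : 1 ≤ N) (W : Finset α) {Z : Finset α} (hZ : Z.Nonempty) (hd : Disjoint Z W) :
    Imp (prune γ s N W) s W Z < ((N : ℝ)⁻¹) ^ Z.card := by
  sorry

/-- targets of type (B): if `x ∈ Fl V S` with `prune γ s N' V S ≠ 0`, take `O', Z` from the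
flag and `Z' = Z \ V`: `Imp V Z' ≥ Imp O' Z ≥ (N⁻¹)^t ≥ N'⁻¹ ≥ (N'⁻¹)^|Z'|`, contradiction;
so `Fl V S = ∅` and `ev V S = s^|S \ V|`. -/
theorem Lam_prune_le {γ : Finset α → ℝ} (hγ : ∀ S, 0 ≤ γ S) {s : ℝ} (hs : 0 ≤ s)
    (hs1 : s ≤ 1) {N N' t : ℕ} (hN : 1 ≤ N) (hNN : N ^ t ≤ N')
    (hcard : ∀ S, γ S ≠ 0 → S.card ≤ t) {D : ℝ} (hD : 0 ≤ D) (W V : Finset α) :
    Lam (prune γ s N' V) s V ≤ LamD γ s N W D V := by
  sorry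

end Vale.Agent.H14.TQ
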