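import Vale.Agent.H14.TQ.Closure
import Vale.Agent.H14.TQ.Prune

/-! ROW A13: gap selection. For `S ⊆ U`, `γ S ≠ 0`, killed by `r` (`prune .. (C r) S = 0`): there
is `Z ⊆ S` disjoint from `C r` with `Imp (C r) Z ≥ (Ns (r+1))⁻¹^|Z|`; if `S` were disjoint from
`C (r+1) \ C r`, then `Z` is disjoint from `C (r+1)` and `Imp_mono` contradicts `Closed`. So `S`
meets `C (r+1) \ C r`, which happens for at most `|S| ≤ t` values of `r`; average over `r`. -/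

namespace Vale.Agent.H14.TQ

open Finset Vale.Agent.H2.P034

variable {α : Type*} [Fintype α] [DecidableEq α]

theorem gap {γ : Finset α → ℝ} (hγ : ∀ S, 0 ≤ γ S) {s : ℝ} (hs : 0 ≤ s) (hs1 : s ≤ 1)
    {t : ℕ} (hcard : ∀ S, γ S ≠ 0 → S.card ≤ t) (Ns : ℕ → ℕ) {U : Finset α} {R : ℕ}
    (hR : 0 < R) (C : ℕ → Finset α) (hCU : ∀ r ≤ R, C r ⊆ U)
    (hcl : ∀ r ≤ R, Closed γ s (Ns r) t U (C r)) (hC : ∀ r < R, C r ⊆ C (r + 1)) :
    ∃ r < R, (1 - (t : ℝ) / R) * Phi γ U ≤ Phi (prune γ s (Ns (r + 1)) (C r)) U := by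
  sorry

end Vale.Agent.H14.TQ
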