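import Vale.Agent.H14.TQ.Flags
import Vale.Agent.H14.TQ.ImpL

/-! ROW A5: mass of the flagged kernel inside a target. Mimic `le_sum_Tw` of H2/P034/Core:
for `S` take `Y = (S ∩ V) \ O`. If `Y = ∅`: `S \ V = S \ O`, `ev V S ≤ ev O S`. If
`∅ ≠ Y ⊆ Fl O S`: `ev V S ≤ ev (O ∪ Y) S`. If `Y ⊄ Fl O S`, then (by `subset_Fl`)
`Imp γ s O Y < (N⁻¹)^|Y|` and the total mass of those `S` is at most `∑_Y (N⁻¹)^|Y|`. -/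

namespace Vale.Agent.H14.TQ

open Finset Vale.Agent.H2.P034

variable {α : Type*} [Fintype α] [DecidableEq α]

theorem TD_nonneg {γ : Finset α → ℝ} (hγ : ∀ S, 0 ≤ γ S) {s : ℝ} (hs : 0 ≤ s) (N : ℕ)
    (W : Finset α) {D : ℝ} (hD : 0 ≤ D) (O Y : Finset α) : 0 ≤ TD γ s N W D O Y := by
  sorry

theorem TD_mass {γ : Finset α → ℝ} (hγ : ∀ S, 0 ≤ γ S) {s : ℝ} (hs : 0 ≤ s) (hs1 : s ≤ 1)
    {N : ℕ} (hN : 1 ≤ N) {D : ℝ} (hD : 0 ≤ D) (hDs : D ≤ s) {W O V : Finset α} (hWO : W ⊆ O)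
    (hOV : O ⊆ V) {ν : ℕ} (hν : (V \ W).card ≤ ν) :
    LamD γ s N W D V - LamD γ s N W D O - ((1 + (N : ℝ)⁻¹) ^ ν - 1)
      ≤ ∑ Y ∈ V.powerset, TD γ s N W D O Y := by
  sorry

end Vale.Agent.H14.TQ
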