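import Vale.Agent.H14.TQ.Defs

/-! ROWS N1..N5: numerics. `M = m^2`, `Nr m (r+1) = (Nr m r)^(2M) = (mNext m r)^2`. -/

namespace Vale.Agent.H14.TQ

open Finset

theorem Nr_succ (m r : ℕ) : Nr m (r + 1) = mNext m r ^ 2 := by
  sorry

theorem one_le_Nr {m : ℕ} (hm : 1 ≤ m) (r : ℕ) : 1 ≤ Nr m r := by
  sorry

theorem Nr_mono {m : ℕ} (hm : 1 ≤ m) : Monotone (Nr m) := by
  sorry

/-- the next scale is at least `2 m` (indeed much more) -/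
theorem mNext_ge {m : ℕ} (hm : 64 ≤ m) (r : ℕ) : 2 * m ≤ mNext m r := by
  sorry

/-- N1: lost mass `(1 + 1/Nf)^ν - 1 ≤ 1/m`. -/
theorem num_lost {m N t : ℕ} (hm : 1 ≤ m) (hN : 1 ≤ N) (ht : 1 ≤ t) :
    (1 + ((Nf m N t : ℕ) : ℝ)⁻¹) ^ (nuB N t) - 1 ≤ 1 / (m : ℝ) := by
  sorry

theorem one_le_Nf {m N t : ℕ} (hm : 1 ≤ m) (ht : 1 ≤ t) : 1 ≤ Nf m N t := by
  sorry

/-- N2: the flag threshold to the power `t` is below the next threshold. -/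
theorem num_flag {m t : ℕ} (ht : 1 ≤ t) (hm : 64 * t ≤ m) (r : ℕ) :
    Nf m (Nr m r) t ^ t ≤ Nr m (r + 1) := by
  sorry

/-- N3: the cost of the reachable sets. -/
theorem num_Bc {m t : ℕ} (ht : 1 ≤ t) (hm : 64 * t ≤ m) (r : ℕ) :
    Bc (Nr m r) t ≤ Real.exp ((mNext m r : ℝ) / 16) := by
  sorry

/-- `L0 = e^{m/2}`, `L1 = e^{L0/2}`, `L2 = e^{L1/2}`. -/
noncomputable def Lz (m : ℕ) : ℝ := Real.exp ((m : ℝ) / 2)
noncomputable def Lo (m : ℕ) : ℝ := Real.exp (Lz m / 2)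
noncomputable def Lt (m : ℕ) : ℝ := Real.exp (Lo m / 2)

/-- N4: three exponentials beat the last scale. -/
theorem num_top {m : ℕ} (hm : 64 ≤ m) {r : ℕ} (hr : r ≤ m ^ 2) :
    (mNext m r : ℝ) / 16 ≤ Lt m / 2 := by
  sorry

/-- N5: the total cost of a step. -/
theorem num_total {m : ℕ} (hm : 64 ≤ m) :
    ((m : ℝ) ^ 2 + 1) * (Lz m * Real.exp (-(m : ℝ)) + Lo m * Real.exp (-Lz m)
        + Lt m * Real.exp (-Lo m) + Real.exp (Lt m / 2) * Real.exp (-Lt m))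
      + (m : ℝ) ^ 2 * Real.exp (-(mNext m 0 : ℝ) / 8) ≤ Real.exp (-(m : ℝ) / 4) := by
  sorry

theorem mNext_mono {m : ℕ} (hm : 1 ≤ m) (r : ℕ) : mNext m 0 ≤ mNext m r := by
  sorry

end Vale.Agent.H14.TQ
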