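import Vale.Agent.H14.TQ.RFacts

/-! ROW A9: total cost of the reachable sets. Per addition:
`∑_{Z: (N⁻¹)^|Z| ≤ Imp O Z, |Z| ≤ t} q^|Z| ≤ N^t ∑_Z s^|Z| Tw γ s O Z = N^t (Lam (s+s) O - Lam s O)
≤ N^t 2^t 2^t = (4N)^t` (`sum_Tw_pow`, `Lam_two`, `Lam γ s O < 2^t`). Then induction on `k`. -/

namespace Vale.Agent.H14.TQ

open Finset Vale.Agent.H2.P034

variable {α : Type*} [Fintype α] [DecidableEq α]

open Classical in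
theorem reach_cost_k {γ : Finset α → ℝ} (hγ : ∀ S, 0 ≤ γ S) {s : ℝ} (hs : 0 ≤ s)
    {q : ℝ} (hq : 0 ≤ q) (hqs : q ≤ s) {N t : ℕ} (hN : 1 ≤ N)
    (hcard : ∀ S, γ S ≠ 0 → S.card ≤ t) (W : Finset α) (k : ℕ) :
    ∑ V ∈ univ.filter (fun V => Reach γ s N t W k V), q ^ (V \ W).card
      ≤ ((4 * (N : ℝ)) ^ t) ^ k := by
  sorry

theorem RSet_cost {γ : Finset α → ℝ} (hγ : ∀ S, 0 ≤ γ S) {s : ℝ} (hs : 0 ≤ s)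
    (hs1 : s ≤ 1 / 2) {q : ℝ} (hq : 0 ≤ q) (hqs : q ≤ s) {N t : ℕ} (hN : 1 ≤ N)
    (hcard : ∀ S, γ S ≠ 0 → S.card ≤ t) (W : Finset α) :
    ∑ V ∈ RSet γ s N t W, q ^ (V \ W).card ≤ Bc N t := by
  sorry

end Vale.Agent.H14.TQ
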