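import Vale.Agent.H14.TQ.ImpL

/-! ROW A8: facts on reachable sets. -/

namespace Vale.Agent.H14.TQ

open Finset Vale.Agent.H2.P034

variable {α : Type*} [Fintype α] [DecidableEq α]

theorem Reach.sub {γ : Finset α → ℝ} {s : ℝ} {N t k : ℕ} {W V : Finset α}
    (h : Reach γ s N t W k V) : W ⊆ V ∧ (V \ W).card ≤ t * k := by
  sorry

theorem Reach.lam {γ : Finset α → ℝ} (hγ : ∀ S, 0 ≤ γ S) {s : ℝ} (hs : 0 ≤ s)
    (hs1 : s ≤ 1 / 2) {N t k : ℕ} (hN : 1 ≤ N) {W V : Finset α} (h : Reach γ s N t W k V) :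
    (k : ℝ) * (((N : ℝ)⁻¹) ^ t / 2) ≤ Lam γ s V := by
  sorry

theorem Reach.le_kmax {γ : Finset α → ℝ} (hγ : ∀ S, 0 ≤ γ S) {s : ℝ} (hs : 0 ≤ s)
    (hs1 : s ≤ 1 / 2) {N t k : ℕ} (hN : 1 ≤ N) {W V : Finset α} (h : Reach γ s N t W k V) :
    k ≤ kmax N t := by
  sorry

theorem Reach.mono {γ : Finset α → ℝ} {s : ℝ} {N N' t k : ℕ} (hN : 1 ≤ N) (hNN : N ≤ N')
    {W V : Finset α} (h : Reach γ s N t W k V) : Reach γ s N' t W k V := by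
  sorry

theorem Rch.card_le {γ : Finset α → ℝ} (hγ : ∀ S, 0 ≤ γ S) {s : ℝ} (hs : 0 ≤ s)
    (hs1 : s ≤ 1 / 2) {N t : ℕ} (hN : 1 ≤ N) {W V : Finset α} (h : Rch γ s N t W V) :
    W ⊆ V ∧ (V \ W).card ≤ nuB N t := by
  sorry

end Vale.Agent.H14.TQ
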