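import Vale.Agent.H14.TQ.Step

/-! Recursion over the scales (owner helper14). -/

namespace Vale.Agent.H14.TQ

open Finset Vale.Agent.H2.P034

variable {α : Type*} [Fintype α] [DecidableEq α]

theorem base_case {γ : Finset α → ℝ} (hγ : ∀ S, 0 ≤ γ S) {s g0 : ℝ}
    (hg0 : ∀ S, γ S ≠ 0 → g0 ≤ γ S) (hs : 0 < s) {m : ℕ} (hm : 1 ≤ m) {W : Finset α}
    (hsp : ∀ Z : Finset α, Z.Nonempty → Disjoint Z W →
      Imp γ s W Z < (((m ^ 2 : ℕ) : ℝ)⁻¹) ^ Z.card)
    (hbig : (((m ^ 2 : ℕ) : ℝ)⁻¹) ≤ g0) (U : Finset α) : Phi γ U ≤ Lam γ s W := by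
  have hsub : ∀ S, γ S ≠ 0 → S ⊆ W := by
    intro S hS
    by_contra hSW
    have hne : (S \ W).Nonempty := by
      rw [Finset.nonempty_iff_ne_empty, ne_eq, Finset.sdiff_eq_empty_iff_subset]
      exact hSW
    have h1 := hsp (S \ W) hne Finset.sdiff_disjoint
    have h2 : γ S ≤ Imp γ s W (S \ W) := by
      unfold Imp
      have h3 := Finset.single_le_sum (f := fun S' : Finset α =>
        if S \ W ⊆ S' then γ S' * s ^ (S' \ (W ∪ S \ W)).card else 0)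
        (fun S' _ => by
          split_ifs
          · exact mul_nonneg (hγ S') (pow_nonneg hs.le _)
          · exact le_refl _) (Finset.mem_univ S)
      rw [if_pos Finset.sdiff_subset] at h3
      have h4 : S \ (W ∪ S \ W) = ∅ := by
        rw [Finset.sdiff_eq_empty_iff_subset]
        intro x hx
        by_cases hxW : x ∈ W
        · exact Finset.mem_union_left _ hxW
        · exact Finset.mem_union_right _ (Finset.mem_sdiff.mpr ⟨hx, hxW⟩)
      rw [h4] at h3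
      simpa using h3
    have h5 : (((m ^ 2 : ℕ) : ℝ)⁻¹) ^ (S \ W).card ≤ ((m ^ 2 : ℕ) : ℝ)⁻¹ := by
      have h6 : (0 : ℝ) ≤ ((m ^ 2 : ℕ) : ℝ)⁻¹ := by positivity
      have h7 : ((m ^ 2 : ℕ) : ℝ)⁻¹ ≤ 1 := by
        apply inv_le_one_of_one_le₀
        exact_mod_cast Nat.one_le_pow 2 m hm
      exact pow_le_of_le_one h6 h7 (Finset.card_pos.mpr hne).ne'
    linarith [hg0 S hS]
  have h1 : Lam γ s W = ∑ S, γ S := by
    unfold Lam
    refine Finset.sum_congr rfl (fun S _ => ?_)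
    by_cases hS : γ S = 0
    · rw [hS]; simp
    · rw [Finset.sdiff_eq_empty_iff_subset.mpr (hsub S hS)]; simp
  rw [h1]
  exact Finset.sum_le_sum_of_subset_of_nonneg (Finset.subset_univ _) (fun S _ _ => hγ S)

theorem recursion {s q g0 : ℝ} (hs : 0 < s) (hs2 : s ≤ 1 / 2) (hq : 0 ≤ q)
    (hqs : 60 * q ≤ s) (hg0 : 0 < g0) {t : ℕ} (ht : 1 ≤ t) :
    ∀ j : ℕ, ∀ γ : Finset α → ℝ, (∀ S, 0 ≤ γ S) → (∀ S, γ S ≠ 0 → g0 ≤ γ S) →
      (∀ S, γ S ≠ 0 → S.card ≤ t) → ∀ m : ℕ, 64 * t ≤ m → ∀ W : Finset α, ∀ θ ρ : ℝ,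
      1 / 2 ≤ θ → θ + 8 / (m : ℝ) ≤ 3 / 4 → ρ ≤ 1 → 3 / 4 + 2 / (m : ℝ) ≤ ρ →
      Lam γ s W < θ →
      (∀ Z : Finset α, Z.Nonempty → Disjoint Z W →
        Imp γ s W Z < (((m ^ 2 : ℕ) : ℝ)⁻¹) ^ Z.card) →
      (1 / g0 ≤ 2 ^ j * ((m ^ 2 : ℕ) : ℝ)) →
      Cov q W (fun U => ρ ≤ Phi γ U) (Real.exp (-(m : ℝ) / 4)) := by
  intro j
  induction j with
  | zero =>
    intro γ hγ hmin hcard m hm W θ ρ hθ hθ2 hρ1 hρ hW hsp hj
    have hm1 : 1 ≤ m := by omega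
    have hmR : (0 : ℝ) < m := by exact_mod_cast (by omega : 0 < m)
    refine Cov.empty (fun U _ hU => ?_) (Real.exp_pos _).le
    have hbig : (((m ^ 2 : ℕ) : ℝ)⁻¹) ≤ g0 := by
      rw [pow_zero, one_mul] at hj
      have h1 : (0 : ℝ) < ((m ^ 2 : ℕ) : ℝ) := by positivity
      rw [inv_le_comm₀ h1 hg0]
      simpa using hj
    have h2 := base_case hγ hmin hs hm1 hsp hbig U
    have h3 : 0 < 8 / (m : ℝ) := by positivity
    have h4 : 0 < 2 / (m : ℝ) := by positivity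
    linarith
  | succ j ih =>
    intro γ hγ hmin hcard m hm W θ ρ hθ hθ2 hρ1 hρ hW hsp hj
    have hm1 : 1 ≤ m := by omega
    have hm64 : 64 ≤ m := by omega
    have hmR : (0 : ℝ) < m := by exact_mod_cast (by omega : 0 < m)
    have h8 : 0 < 8 / (m : ℝ) := by positivity
    have h2m : 0 < 2 / (m : ℝ) := by positivity
    refine step_lemma hγ hs hs2 hq hqs ht hm hcard W hθ hθ2 hρ1 (by linarith) hW
      (init_of_spread hγ hs hq hqs hm64 hsp (by linarith) hW) ?_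
    intro r hr W' hR hWW' hlam
    have hm' := mNext_ge hm64 r
    have hmR' : (0 : ℝ) < mNext m r := by
      exact_mod_cast (by omega : 0 < mNext m r)
    have hmm' : 2 * (m : ℝ) ≤ mNext m r := by exact_mod_cast hm'
    have e1 : 8 / (mNext m r : ℝ) ≤ 4 / (m : ℝ) := by
      rw [div_le_div_iff₀ hmR' hmR]; linarith
    have e2 : 2 / (mNext m r : ℝ) ≤ 1 / (m : ℝ) := by
      rw [div_le_div_iff₀ hmR' hmR]; linarith
    have e3 : 8 / (m : ℝ) = 4 / m + 4 / m := by ring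
    have e4 : 2 / (m : ℝ) = 1 / m + 1 / m := by ring
    have e5 : 0 < 4 / (m : ℝ) := by positivity
    have e6 : 0 < 1 / (m : ℝ) := by positivity
    refine ih (prune γ s (Nr m (r + 1)) W') (prune_nonneg hγ _ _ _) ?_ ?_ (mNext m r)
      (by omega) W' (θ + 4 / (m : ℝ)) (ρ - 1 / (m : ℝ)) (by linarith) (by linarith)
      (by linarith) (by linarith) hlam ?_ ?_
    · intro S hS
      obtain ⟨a, b, _⟩ := prune_ne_zero hS
      rw [b]; exact hmin S a
    · intro S hS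
      exact hcard S (prune_ne_zero hS).1
    · intro Z hZ hd
      have h1 := prune_spread hγ hs.le (one_le_Nr hm1 (r + 1)) W' hZ hd
      rwa [Nr_succ] at h1 ⊢
    · refine le_trans hj ?_
      push_cast
      have h1 : (4 : ℝ) * (m : ℝ) ^ 2 ≤ (mNext m r : ℝ) ^ 2 := by nlinarith
      have h2 : (0 : ℝ) < 2 ^ j := by positivity
      have h3 : (0 : ℝ) ≤ (m : ℝ) ^ 2 := by positivity
      calc (2 : ℝ) ^ (j + 1) * (m : ℝ) ^ 2 = 2 ^ j * (2 * (m : ℝ) ^ 2) := by ring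
        _ ≤ 2 ^ j * (mNext m r : ℝ) ^ 2 := by
            refine mul_le_mul_of_nonneg_left ?_ h2.le
            nlinarith

/-- The root: `t`-uniform weights of tiny cost. -/
theorem root {γ : Finset α → ℝ} (hγ : ∀ S, 0 ≤ γ S) {s q : ℝ} (hs : 0 < s)
    (hs2 : s ≤ 1 / 2) (hq : 0 ≤ q) (hqs : 60 * q ≤ s) {t : ℕ} (ht : 1 ≤ t)
    (hcard : ∀ S, γ S ≠ 0 → S.card ≤ t)
    (hw : Lam γ s ∅ ≤ Real.exp (-(64 * (t : ℝ))) / 2) :
    Cov q ∅ (fun U => 1 ≤ Phi γ U) (Real.exp (-(16 * (t : ℝ)))) := by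
  classical
  obtain ⟨g0, hg0, hmin⟩ : ∃ g0 : ℝ, 0 < g0 ∧ ∀ S, γ S ≠ 0 → g0 ≤ γ S := by
    by_cases hne : (univ.filter (fun S : Finset α => γ S ≠ 0)).Nonempty
    · obtain ⟨S0, hS0, hmin⟩ := Finset.exists_min_image _ γ hne
      refine ⟨γ S0, lt_of_le_of_ne (hγ S0) (Ne.symm (Finset.mem_filter.mp hS0).2), ?_⟩
      intro S hS
      exact hmin S (by simp [hS])
    · refine ⟨1, one_pos, fun S hS => absurd ⟨S, by simp [hS]⟩ hne⟩
  have hm : 64 * t ≤ 64 * t := le_refl _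
  have hm64 : 64 ≤ 64 * t := by omega
  have hm1 : 1 ≤ 64 * t := by omega
  have htR : (1 : ℝ) ≤ t := by exact_mod_cast ht
  have hmR : (((64 * t : ℕ) : ℝ)) = 64 * t := by push_cast; ring
  have hm64R : (64 : ℝ) ≤ ((64 * t : ℕ) : ℝ) := by rw [hmR]; linarith
  have hpos : (0 : ℝ) < ((64 * t : ℕ) : ℝ) := by linarith
  have hinv : 1 / ((64 * t : ℕ) : ℝ) ≤ 1 / 64 := one_div_le_one_div_of_le (by norm_num) hm64R
  have hinv0 : 0 < 1 / ((64 * t : ℕ) : ℝ) := by positivity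
  have k8 : 8 / ((64 * t : ℕ) : ℝ) = 8 * (1 / ((64 * t : ℕ) : ℝ)) := by ring
  have k4 : 4 / ((64 * t : ℕ) : ℝ) = 4 * (1 / ((64 * t : ℕ) : ℝ)) := by ring
  have k2 : 2 / ((64 * t : ℕ) : ℝ) = 2 * (1 / ((64 * t : ℕ) : ℝ)) := by ring
  have hLam0 : 0 ≤ Lam γ s ∅ := Lam_nonneg hγ hs.le _
  have hexp1 : Real.exp (-(64 * (t : ℝ))) ≤ 1 := Real.exp_le_one_iff.mpr (by linarith)
  have hexp0 := Real.exp_pos (-(64 * (t : ℝ)))
  have h := step_lemma (m := 64 * t) hγ hs hs2 hq hqs ht (le_refl _) hcard ∅ (θ := 3 / 5)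
    (ρ := 1) (by norm_num) (by rw [k8]; linarith) (le_refl _) (by norm_num) (by linarith)
    (fun O _ _ => by
      have h1 : (6 * q / s) ^ (O \ (∅ : Finset α)).card ≤ 1 := by
        refine pow_le_one₀ (by positivity) ?_
        rw [div_le_one hs]; linarith
      calc (6 * q / s) ^ (O \ (∅ : Finset α)).card * Lam γ s ∅ ≤ 1 * Lam γ s ∅ :=
            mul_le_mul_of_nonneg_right h1 hLam0
        _ ≤ Real.exp (-(64 * (t : ℝ))) / 2 := by rw [one_mul]; exact hw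
        _ ≤ (3 / 5 + 1 / ((64 * t : ℕ) : ℝ)) * Real.exp (-((64 * t : ℕ) : ℝ)) := by
            rw [hmR] at *
            nlinarith)
    (fun r hr W' hR hWW' hlam => by
      have hm' := mNext_ge hm64 r
      have hmR' : (0 : ℝ) < mNext (64 * t) r := by
        exact_mod_cast (by omega : 0 < mNext (64 * t) r)
      have hmm' : 2 * ((64 * t : ℕ) : ℝ) ≤ mNext (64 * t) r := by exact_mod_cast hm'
      have e1 : 1 / (mNext (64 * t) r : ℝ) ≤ 1 / 128 := by
        apply one_div_le_one_div_of_le (by norm_num); linarith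
      have e0 : 0 < 1 / (mNext (64 * t) r : ℝ) := by positivity
      have l8 : 8 / (mNext (64 * t) r : ℝ) = 8 * (1 / (mNext (64 * t) r : ℝ)) := by ring
      have l2 : 2 / (mNext (64 * t) r : ℝ) = 2 * (1 / (mNext (64 * t) r : ℝ)) := by ring
      obtain ⟨j, hj⟩ := pow_unbounded_of_one_lt (1 / g0) (one_lt_two : (1 : ℝ) < 2)
      refine recursion hs hs2 hq hqs hg0 ht j (prune γ s (Nr (64 * t) (r + 1)) W')
        (prune_nonneg hγ _ _ _) ?_ ?_ (mNext (64 * t) r) (by omega) W'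
        (3 / 5 + 4 / ((64 * t : ℕ) : ℝ)) (1 - 1 / ((64 * t : ℕ) : ℝ)) (by linarith [k4])
        (by rw [k4, l8]; linarith) (by linarith) (by rw [l2]; linarith) hlam ?_ ?_
      · intro S hS
        obtain ⟨a, b, _⟩ := prune_ne_zero hS
        rw [b]; exact hmin S a
      · intro S hS
        exact hcard S (prune_ne_zero hS).1
      · intro Z hZ hd
        have h1 := prune_spread hγ hs.le (one_le_Nr hm1 (r + 1)) W' hZ hd
        rwa [Nr_succ] at h1 ⊢
      · refine le_trans hj.le ?_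
        have h1 : (1 : ℝ) ≤ ((mNext (64 * t) r ^ 2 : ℕ) : ℝ) := by
          push_cast
          nlinarith
        have h2 : (0 : ℝ) < 2 ^ j := by positivity
        nlinarith)
  refine h.mono (fun U _ h => h) ?_
  rw [Real.exp_le_exp, hmR]
  linarith

end Vale.Agent.H14.TQ
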