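import Vale.Agent.H14.TQ.ImpL

/-! ROW A14: spread weights have no small heavy sets. `Lam_sub_le`, then
`∑_{∅ ≠ Y ⊆ O \ W} ((m^2)⁻¹)^|Y| = (1 + m⁻²)^n - 1`, which is `< 1/m` if `n ≤ m/2`
(`(1+x)^n ≤ exp (n x)`, `exp y ≤ 1 + y + y^2` for `0 ≤ y ≤ 1`). -/

namespace Vale.Agent.H14.TQ

open Finset Vale.Agent.H2.P034

variable {α : Type*} [Fintype α] [DecidableEq α]

theorem spread_card {γ : Finset α → ℝ} (hγ : ∀ S, 0 ≤ γ S) {s : ℝ} (hs : 0 ≤ s) {m : ℕ}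
    (hm : 64 ≤ m) {W O : Finset α} (hWO : W ⊆ O)
    (hsp : ∀ Z : Finset α, Z.Nonempty → Disjoint Z W →
      Imp γ s W Z < (((m ^ 2 : ℕ) : ℝ)⁻¹) ^ Z.card)
    (hO : Lam γ s W + 1 / (m : ℝ) ≤ Lam γ s O) : (m : ℝ) / 2 ≤ ((O \ W).card : ℝ) := by
  sorry

/-- the initial cost condition for spread states: `60 q ≤ s` gives `6q/s ≤ 1/10 ≤ e^{-2}`. -/
theorem init_of_spread {γ : Finset α → ℝ} (hγ : ∀ S, 0 ≤ γ S) {s : ℝ} (hs : 0 < s)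
    {q : ℝ} (hq : 0 ≤ q) (hqs : 60 * q ≤ s) {m : ℕ}
    (hm : 64 ≤ m) {W : Finset α}
    (hsp : ∀ Z : Finset α, Z.Nonempty → Disjoint Z W →
      Imp γ s W Z < (((m ^ 2 : ℕ) : ℝ)⁻¹) ^ Z.card)
    {θ : ℝ} (hθ : 0 < θ) (hW : Lam γ s W < θ) :
    ∀ O, W ⊆ O → θ + 1 / (m : ℝ) ≤ Lam γ s O →
      (6 * q / s) ^ (O \ W).card * Lam γ s W ≤ (θ + 1 / (m : ℝ)) * Real.exp (-(m : ℝ)) := by
  sorry

end Vale.Agent.H14.TQ
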