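import Vale.Agent.H14.TQ.Block
import Vale.Agent.H14.TQ.RCost
import Vale.Agent.H14.TQ.Gap
import Vale.Agent.H14.TQ.Spread
import Vale.Agent.H14.TQ.Num
import Vale.Agent.H14.TQ.CovL

/-! The step of the induction (owner helper14). -/

namespace Vale.Agent.H14.TQ

open Finset Vale.Agent.H2.P034

variable {α : Type*} [Fintype α] [DecidableEq α]

theorem mem_RSet {γ : Finset α → ℝ} {s : ℝ} {N t : ℕ} {W V : Finset α} :
    V ∈ RSet γ s N t W ↔ Rch γ s N t W V := by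
  classical
  simp [RSet]

open Classical in
theorem step_lemma {γ : Finset α → ℝ} (hγ : ∀ S, 0 ≤ γ S) {s q : ℝ} (hs : 0 < s)
    (hs2 : s ≤ 1 / 2) (hq : 0 ≤ q) (hqs : 60 * q ≤ s) {t m : ℕ} (ht : 1 ≤ t)
    (hm : 64 * t ≤ m) (hcard : ∀ S, γ S ≠ 0 → S.card ≤ t) (W : Finset α) {θ ρ : ℝ}
    (hθ : 1 / 2 ≤ θ) (hθ2 : θ + 8 / (m : ℝ) ≤ 3 / 4) (hρ1 : ρ ≤ 1) (hρ0 : 0 ≤ ρ)
    (hW : Lam γ s W < θ)
    (hinit : ∀ O, W ⊆ O → θ + 1 / (m : ℝ) ≤ Lam γ s O →
      (6 * q / s) ^ (O \ W).card * Lam γ s W ≤ (θ + 1 / (m : ℝ)) * Real.exp (-(m : ℝ)))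
    (hsub : ∀ r < m ^ 2, ∀ W' : Finset α, Rch γ s (Nr m r) t W W' → W ⊆ W' →
      Lam (prune γ s (Nr m (r + 1)) W') s W' < θ + 4 / (m : ℝ) →
      Cov q W' (fun U => ρ - 1 / (m : ℝ) ≤ Phi (prune γ s (Nr m (r + 1)) W') U)
        (Real.exp (-(mNext m r : ℝ) / 4))) :
    Cov q W (fun U => ρ ≤ Phi γ U) (Real.exp (-(m : ℝ) / 4)) := by
  have hm64 : 64 ≤ m := by omega
  have hm1 : 1 ≤ m := by omega
  have hmR : (0 : ℝ) < m := by exact_mod_cast (by omega : 0 < m)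
  have hs1 : s ≤ 1 := by linarith
  have hqs6 : 6 * q ≤ s := by linarith
  have hqs' : q ≤ s := by linarith
  set X : ℝ := Lz m * Real.exp (-(m : ℝ)) + Lo m * Real.exp (-Lz m)
        + Lt m * Real.exp (-Lo m) + Real.exp (Lt m / 2) * Real.exp (-Lt m) with hX
  -- the targets
  let T : ℕ → Finset (Finset α) := fun r => (RSet γ s (Nr m r) t W).filter
    (fun V => θ + 4 * (1 / (m : ℝ)) ≤ LamD γ s (Nf m (Nr m r) t) W (s / 2) V)
  have hP1 : ∀ r ∈ range (m ^ 2 + 1), Cov q W (fun U => ∃ V ∈ T r, V ⊆ U) X := by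
    intro r hr
    have hr' : r ≤ m ^ 2 := by rw [mem_range] at hr; omega
    have hN : 1 ≤ Nr m r := one_le_Nr hm1 r
    have hcost : ∑ V ∈ T r, q ^ (V \ W).card ≤ Bc (Nr m r) t := by
      refine le_trans (Finset.sum_le_sum_of_subset_of_nonneg (Finset.filter_subset _ _)
        (fun V _ _ => pow_nonneg hq _)) ?_
      exact RSet_cost hγ hs.le hs2 hq hqs' hN hcard W
    obtain ⟨G, hG1, hG2⟩ := block_cover hγ hs hs1 hq hqs6 (N := Nf m (Nr m r) t)
      (one_le_Nf hm1 ht) W (ν := nuB (Nr m r) t) (θ := θ) (η := 1 / (m : ℝ))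
      (c0 := Real.exp (-(m : ℝ))) (by linarith) (by positivity) (num_lost hm1 hN ht)
      (by have : 0 < 1 / (m : ℝ) := by positivity
          linarith) hinit (T r) (fun V hV => by
        have h1 := (Finset.mem_filter.mp hV)
        have h2 := Rch.card_le hγ hs.le hs2 hN (mem_RSet.mp h1.1)
        exact ⟨h2.1, h2.2, h1.2⟩) hcost (L0 := Lz m) (L1 := Lo m) (L2 := Lt m)
      (Real.exp_pos _).le (Real.exp_pos _).le (Real.exp_pos _).le
    refine ⟨G, fun U _ hU => ?_, le_trans hG2 ?_⟩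
    · obtain ⟨V, hV, hVU⟩ := hU
      obtain ⟨O, hO, hOV⟩ := hG1 V hV
      exact ⟨O, hO, hOV.trans hVU⟩
    · rw [hX]
      have h3 : Bc (Nr m r) t ≤ Real.exp (Lt m / 2) :=
        le_trans (num_Bc ht hm r) (Real.exp_le_exp.mpr (num_top hm64 hr'))
      have h4 := mul_le_mul_of_nonneg_right h3 (Real.exp_pos (-Lt m)).le
      linarith
  let A : ℕ → Finset (Finset α) := fun r => (RSet γ s (Nr m r) t W).filter
    (fun W' => Lam (prune γ s (Nr m (r + 1)) W') s W' < θ + 4 / (m : ℝ))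
  have hP2 : ∀ r ∈ range (m ^ 2), Cov q W (fun U => ∃ W' ∈ A r, W' ⊆ U ∧
      ρ - 1 / (m : ℝ) ≤ Phi (prune γ s (Nr m (r + 1)) W') U)
      (Real.exp (-(mNext m 0 : ℝ) / 8)) := by
    intro r hr
    have hr' : r < m ^ 2 := by rwa [mem_range] at hr
    have hN : 1 ≤ Nr m r := one_le_Nr hm1 r
    have h1 : ∀ W' ∈ A r, Cov q W (fun U => W' ⊆ U ∧
        ρ - 1 / (m : ℝ) ≤ Phi (prune γ s (Nr m (r + 1)) W') U)
        (q ^ (W' \ W).card * Real.exp (-(mNext m r : ℝ) / 4)) := by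
      intro W' hW'
      have h2 := Finset.mem_filter.mp hW'
      have h3 := mem_RSet.mp h2.1
      have h4 := (Rch.card_le hγ hs.le hs2 hN h3).1
      exact Cov.lift hq h4 (hsub r hr' W' h3 h4 h2.2)
    refine (Cov.biUnion hq (A r) _ _ h1).mono (fun U _ h => h) ?_
    rw [← Finset.sum_mul]
    have h5 : ∑ V ∈ A r, q ^ (V \ W).card ≤ Real.exp ((mNext m r : ℝ) / 16) := by
      refine le_trans (Finset.sum_le_sum_of_subset_of_nonneg (Finset.filter_subset _ _)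
        (fun V _ _ => pow_nonneg hq _)) ?_
      exact le_trans (RSet_cost hγ hs.le hs2 hq hqs' hN hcard W) (num_Bc ht hm r)
    calc (∑ V ∈ A r, q ^ (V \ W).card) * Real.exp (-(mNext m r : ℝ) / 4)
        ≤ Real.exp ((mNext m r : ℝ) / 16) * Real.exp (-(mNext m r : ℝ) / 4) :=
          mul_le_mul_of_nonneg_right h5 (Real.exp_pos _).le
      _ = Real.exp (-3 * (mNext m r : ℝ) / 16) := by rw [← Real.exp_add]; congr 1; ring
      _ ≤ Real.exp (-(mNext m 0 : ℝ) / 8) := by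
          rw [Real.exp_le_exp]
          have h6 : (mNext m 0 : ℝ) ≤ mNext m r := by exact_mod_cast mNext_mono hm1 r
          have h7 : (0 : ℝ) ≤ mNext m 0 := Nat.cast_nonneg _
          linarith
  have hC1 := Cov.biUnion hq (range (m ^ 2 + 1)) (fun r U => ∃ V ∈ T r, V ⊆ U) (fun _ => X) hP1
  have hC2 := Cov.biUnion hq (range (m ^ 2)) (fun r U => ∃ W' ∈ A r, W' ⊆ U ∧
      ρ - 1 / (m : ℝ) ≤ Phi (prune γ s (Nr m (r + 1)) W') U)
      (fun _ => Real.exp (-(mNext m 0 : ℝ) / 8)) hP2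
  refine (Cov.union hq hC1 hC2).mono ?_ ?_
  · intro U hWU hU
    rcases closures γ s (Nr m) (one_le_Nr hm1) (Nr_mono hm1) t hWU (m ^ 2) with
      ⟨r, hr, V, hVU, hV, hVL⟩ | ⟨C, hC, hCC⟩
    · left
      refine ⟨r, by rw [mem_range]; omega, V, ?_, hVU⟩
      refine Finset.mem_filter.mpr ⟨mem_RSet.mpr hV, ?_⟩
      have h1 := LamD_half_ge hγ hs.le (Nf m (Nr m r) t) W hcard V
      have h2 : (1 : ℝ) ≤ LamD γ s (Nf m (Nr m r) t) W (s / 2) V := by
        have h3 : (0 : ℝ) < 2 ^ t := by positivity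
        have h4 : (2 : ℝ) ^ t * 1 ≤ 2 ^ t * LamD γ s (Nf m (Nr m r) t) W (s / 2) V := by
          linarith
        exact le_of_mul_le_mul_left h4 h3
      have h5 : 4 * (1 / (m : ℝ)) ≤ 8 / (m : ℝ) := by
        rw [mul_one_div]
        exact div_le_div_of_nonneg_right (by norm_num) hmR.le
      linarith
    · obtain ⟨r, hr, hgap⟩ := gap hγ hs.le hs1 hcard (Nr m) (U := U) (R := m ^ 2)
        (by positivity) C (fun r hr => (hC r hr).2.1) (fun r hr => (hC r hr).2.2.2) hCC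
      have hCr := hC r hr.le
      by_cases hcase : Lam (prune γ s (Nr m (r + 1)) (C r)) s (C r) < θ + 4 / (m : ℝ)
      · right
        refine ⟨r, mem_range.mpr hr, C r, Finset.mem_filter.mpr ⟨mem_RSet.mpr hCr.2.2.1, hcase⟩,
          hCr.2.1, le_trans ?_ hgap⟩
        have h1 : (t : ℝ) / ((m ^ 2 : ℕ) : ℝ) ≤ 1 / m := by
          push_cast
          rw [div_le_div_iff₀ (by positivity) hmR]
          have : (t : ℝ) ≤ m := by exact_mod_cast (by omega : t ≤ m)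
          nlinarith
        have h2 : 1 / (m : ℝ) ≤ 1 / 64 := by
          apply one_div_le_one_div_of_le (by norm_num)
          exact_mod_cast hm64
        have h3 : 0 ≤ (t : ℝ) / ((m ^ 2 : ℕ) : ℝ) := by positivity
        have h4 : (1 - (t : ℝ) / ((m ^ 2 : ℕ) : ℝ)) * ρ
            ≤ (1 - (t : ℝ) / ((m ^ 2 : ℕ) : ℝ)) * Phi γ U :=
          mul_le_mul_of_nonneg_left hU (by linarith)
        nlinarith
      · left
        refine ⟨r, by rw [mem_range]; omega, C r, ?_, hCr.2.1⟩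
        refine Finset.mem_filter.mpr ⟨mem_RSet.mpr hCr.2.2.1, ?_⟩
        rw [not_lt] at hcase
        have h1 := Lam_prune_le hγ hs.le hs1 (N := Nf m (Nr m r) t) (N' := Nr m (r + 1)) (t := t)
          (one_le_Nf hm1 ht) (num_flag ht hm r) hcard (D := s / 2) (by linarith) W (C r)
        rw [mul_one_div]
        linarith
  · rw [Finset.sum_const, Finset.sum_const, Finset.card_range, Finset.card_range, nsmul_eq_mul,
      nsmul_eq_mul]
    have h1 := num_total hm64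
    push_cast
    rw [hX]
    exact h1

end Vale.Agent.H14.TQ
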